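import Mathlib

set_option autoImplicit false
set_option linter.all false

/-! P088 (leaf iH, RowO1): two elementary limits (helper684 for helper808). -/

namespace Vale.Agent.P088.R2.H684.INF

open Filter Topology

theorem lim_a {σ C : ℝ} (hσ : 0 < σ) (hC : 0 < C) (K : ℝ) : ∀ᶠ t : ℝ in Filter.atTop,
    K * ((20 * C / σ) ^ 4 * (Real.exp (C * t / σ) *
      Real.exp (-(20 * C / σ * (3 / 10 * t / 2 - 1)))) +
        t ^ 4 * Real.exp (1 - 4 / 100 * √t)) ≤ 1 := by
  have hk : 0 < 2 * C / σ := by positivity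
  have h1 : Tendsto (fun t : ℝ => Real.exp (-(2 * C / σ * t))) atTop (𝓝 0) := by
    refine Real.tendsto_exp_neg_atTop_nhds_zero.comp ?_
    exact tendsto_id.const_mul_atTop hk
  have h2 : Tendsto (fun t : ℝ => (20 * C / σ) ^ 4 * (Real.exp (C * t / σ) *
      Real.exp (-(20 * C / σ * (3 / 10 * t / 2 - 1))))) atTop (𝓝 0) := by
    have h3 := h1.const_mul ((20 * C / σ) ^ 4 * Real.exp (20 * C / σ))
    rw [mul_zero] at h3
    refine h3.congr fun t => ?_
    rw [mul_assoc, ← Real.exp_add, ← Real.exp_add]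
    congr 2
    field_simp
    ring
  have h4 : Tendsto (fun t : ℝ => 4 / 100 * √t) atTop atTop :=
    (Real.tendsto_sqrt_atTop).const_mul_atTop (by norm_num)
  have h5 := (Real.tendsto_pow_mul_exp_neg_atTop_nhds_zero 8).comp h4
  have h6 : Tendsto (fun t : ℝ => t ^ 4 * Real.exp (1 - 4 / 100 * √t)) atTop (𝓝 0) := by
    have h7 := h5.const_mul (25 ^ 8 * Real.exp 1)
    rw [mul_zero] at h7
    refine h7.congr' ?_
    filter_upwards [eventually_ge_atTop (0 : ℝ)] with t ht
    have h8 : t ^ 4 = (√t) ^ 8 := by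
      rw [show (8 : ℕ) = 2 * 4 by norm_num, pow_mul, Real.sq_sqrt ht]
    have h9 : Real.exp (1 - 4 / 100 * √t) = Real.exp 1 * Real.exp (-(4 / 100 * √t)) := by
      rw [← Real.exp_add]
      congr 1
    simp only [Function.comp]
    rw [h8, h9, mul_pow]
    ring
  have h10 := (h2.add h6).const_mul K
  rw [add_zero, mul_zero] at h10
  exact h10.eventually_le_const (by norm_num)

theorem lim_b {σ C : ℝ} (hσ : 0 < σ) (hC : 20 ≤ C) (K : ℝ) : ∀ᶠ t : ℝ in Filter.atTop,
    K * Real.exp (9 * (t / σ)) ≤ Real.exp (10 * C / σ * (t / 20 - 1)) := by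
  have h1 : Tendsto (fun t : ℝ => Real.exp (t / σ)) atTop atTop :=
    Real.tendsto_exp_atTop.comp (tendsto_id.atTop_div_const hσ)
  filter_upwards [h1.eventually_ge_atTop (K * Real.exp (10 * C / σ)),
    eventually_ge_atTop (0 : ℝ)] with t ht ht0
  have h2 : 10 * (t / σ) - 10 * C / σ ≤ 10 * C / σ * (t / 20 - 1) := by
    have h3 : 10 * C / σ * (t / 20 - 1) = C / 2 * (t / σ) - 10 * C / σ := by
      field_simp
      ring
    rw [h3]
    have h4 : 0 ≤ t / σ := by positivity
    nlinarith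
  refine le_trans ?_ (Real.exp_le_exp.2 h2)
  have h5 : Real.exp (10 * (t / σ) - 10 * C / σ) =
      Real.exp (9 * (t / σ)) * (Real.exp (t / σ) / Real.exp (10 * C / σ)) := by
    rw [← Real.exp_sub, ← Real.exp_add]
    congr 1
    ring
  rw [h5, mul_comm]
  refine mul_le_mul_of_nonneg_left ?_ (Real.exp_pos _).le
  rw [le_div_iff₀ (Real.exp_pos _)]
  exact ht

end Vale.Agent.P088.R2.H684.INF
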